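import Vale.Agent.Lib.P335.H5.TwoOrbit
import Vale.Agent.Lib.P335.H8.FlipRel
import Vale.Agent.Lib.P335.H26.EvenRigid
import Vale.Agent.Lib.P335.H17.Slots

/-!
# The disjoint-pair inequality (PI) in the graph model (problem P335)

For two disjoint vertex pairs `b`, `c` the abstract two-orbit inequality `H5.two_orbit` is
instantiated with the class relations of `b` and of `c`, the agreement outside the private slots
of `b` (resp. `c`), the flip of the four-cycle between `b` and `c`, and the set of graphs with an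
odd number of edges between `b` and `c`.
-/

namespace Vale.Agent.Lib.P335.H5

open Finset
open Classical
open Vale.Agent.Lib.P335
open Vale.Agent.Lib.P335.Gr
open Vale.Agent.Lib.P335.H8

variable {n : ℕ} {d : Fin n → ℕ}

theorem gagree_equiv (b : Finset (Fin n)) :
    Equivalence (fun G G' : Omega d => GAgree b G.1 G'.1) :=
  ⟨fun G => GAgree.refl b G.1, fun h => GAgree.symm h, fun h1 h2 => GAgree.trans h1 h2⟩

/-- Agreement outside the private slots of `b` keeps the slots between `b` and `c`. -/
theorem cross_of_agreeS_ownS {b c : Finset (Fin n)} (hd : Disjoint b c) {G G' : Omega d}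
    (h : AgreeS (ownS b c) G G') : ∀ e, e ∈ cross b c → (e ∈ G.1 ↔ e ∈ G'.1) := by
  intro e he
  apply h
  rw [cross_eq_crossS hd] at he
  exact fun h' => Finset.disjoint_left.1 (disjoint_ownS_crossS b c) h' he

theorem cross_of_agreeS_ownS' {b c : Finset (Fin n)} (hd : Disjoint b c) {G G' : Omega d}
    (h : AgreeS (ownS c b) G G') : ∀ e, e ∈ cross b c → (e ∈ G.1 ↔ e ∈ G'.1) := by
  intro e he
  apply h
  rw [cross_eq_crossS hd] at he
  exact fun h' => Finset.disjoint_left.1 (disjoint_ownS_crossS' b c) h' he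

/-- Rectangle completion on the graphs with an odd number of edges between `b` and `c`. -/
theorem graph_rect {b c : Finset (Fin n)} (hb : b.card = 2) (hc : c.card = 2)
    (hd : Disjoint b c) (x y z : Omega d) (hx : Odd (x.1 ∩ cross b c).card)
    (h1 : GAgree b x.1 y.1) (h2 : GAgree c y.1 z.1) :
    ∃ w : Omega d, GAgree c x.1 w.1 ∧ GAgree b w.1 z.1 := by
  obtain ⟨u, w, huw, rfl⟩ := card_eq_two.mp hb
  obtain ⟨p, q, hpq, rfl⟩ := card_eq_two.mp hc
  obtain ⟨hup, huq, hwp, hwq⟩ := pair_distinct hd
  have s1 : H17.SAgree (H17.pairsAt {u, w}) x.1 y.1 := H17.sAgree_pairsAt_iff.mpr h1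
  have s2 : H17.SAgree (H17.pairsAt {p, q}) y.1 z.1 := H17.sAgree_pairsAt_iff.mpr h2
  have hodd : Odd (H17.slotCount x.1 u w p q) := by
    rw [H26.card_inter_cross huw hpq hup huq hwp hwq x.1] at hx
    exact hx
  refine ⟨⟨H17.rect x.1 z.1 u w p q,
    H17.rect_isRealization huw hpq hup huq hwp hwq x.2 y.2 z.2 s1 s2 hodd⟩, ?_, ?_⟩
  · exact H17.sAgree_pairsAt_iff.mp (H17.rect_sAgree_right x.1 z.1 u w p q)
  · exact H17.sAgree_pairsAt_iff.mp (H17.rect_sAgree_left s1 s2)

/-- Two graphs with an odd number of edges between `b` and `c` that lie in the same class of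
`b` and in the same class of `c` are equal. -/
theorem graph_uniq {b c : Finset (Fin n)} (hb : b.card = 2) (hc : c.card = 2)
    (hd : Disjoint b c) (x y : Omega d) (hx : Odd (x.1 ∩ cross b c).card)
    (h1 : GAgree b x.1 y.1) (h2 : GAgree c x.1 y.1) : x = y := by
  have hagree : ∀ e, e ∉ cross b c → (e ∈ x.1 ↔ e ∈ y.1) := by
    intro e he
    rw [cross_eq_crossS hd] at he
    by_cases heb : e ∈ slotsAt b
    · have hec : e ∉ slotsAt c := fun h' => he (mem_inter.mpr ⟨heb, h'⟩)
      exact (gagree_iff c x.1 y.1).mp h2 e hec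
    · exact (gagree_iff b x.1 y.1).mp h1 e heb
  rcases eq_or_eq_flip hb hc hd x y hagree with h | h
  · exact h.symm
  · rw [h, H26.flip_of_odd hb hc hd x hx]

/-- **(PI)**: the disjoint-pair inequality in the graph model. -/
theorem graph_PI (b c : Finset (Fin n)) (hb : b.card = 2) (hc : c.card = 2)
    (hd : Disjoint b c) (f : Omega d → ℝ) :
    (1 / 2) * fenergy b c f - kap b c (f - gavg b f) - kap c b (f - gavg c f)
      ≤ 2 * Bip.ip (f - gavg b f) (f - gavg c f) := by
  have hAlt : (fun G : Omega d => IsAlt c b G.1) = fun G => IsAlt b c G.1 :=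
    funext fun G => propext (isAlt_comm c b G.1)
  have e2 : kap c b (f - gavg c f)
      = kapR (fun G G' : Omega d => GAgree c G.1 G'.1) (fun G => IsAlt b c G.1)
          (f - ravg (fun G G' : Omega d => GAgree c G.1 G'.1) f) := by
    rw [← hAlt]
    rfl
  rw [e2]
  exact two_orbit (Om := Omega d)
    (fun G G' => GAgree b G.1 G'.1) (fun G G' => GAgree c G.1 G'.1)
    (AgreeS (ownS b c)) (AgreeS (ownS c b)) (flip b c)
    (fun G => Odd (G.1 ∩ cross b c).card) (fun G => IsAlt b c G.1)
    (gagree_equiv b) (gagree_equiv c) (agreeS_equiv (ownS b c)) (agreeS_equiv (ownS c b))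
    (fun G => (flip_ne_self_iff hb hc hd G).symm)
    (flip_flip b c) (gagree_flip_left b c) (gagree_flip_right b c)
    (fun _ _ h => agreeS_ownS_flip b c h) (fun _ _ h => agreeS_ownS_flip' b c h)
    (fun x y h hx => by
      apply flip_of_not
      intro hy
      exact flip_ne_self hb hc hd ((isAlt_congr (cross_of_agreeS_ownS hd h)).mpr hy) hx)
    (fun x y h hx => by
      apply flip_of_not
      intro hy
      exact flip_ne_self hb hc hd ((isAlt_congr (cross_of_agreeS_ownS' hd h)).mpr hy) hx)
    (fun x y h => (gagree_iff_agreeS b x y).mpr (agreeS_mono (ownS_subset b c) h))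
    (fun x y h => (gagree_iff_agreeS c x y).mpr (agreeS_mono (ownS_subset c b) h))
    (fun g => ownS_comm b c g) (fun g => gavg_ownS_comm b c g) (fun g => gavg_ownS_comm c b g)
    (fun x y h => by rw [card_cross_eq hd h]) (fun x y h => by rw [card_cross_eq' hd h])
    (fun x hx => H26.flip_of_odd hb hc hd x hx)
    (fun x y z hx h1 h2 => graph_rect hb hc hd x y z hx h1 h2)
    (fun x y hx h1 h2 => graph_uniq hb hc hd x y hx h1 h2)
    (fun x hx hFx => H26.hE_graph hb hc hd x hx hFx)
    (fun x y hx hy h => agreeS_ownS_of_isAlt hb hc hd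
      ((flip_ne_self_iff hb hc hd x).mp hx) ((flip_ne_self_iff hb hc hd y).mp hy) h)
    (fun x y hx hy h => agreeS_ownS_of_isAlt' hb hc hd
      ((flip_ne_self_iff hb hc hd x).mp hx) ((flip_ne_self_iff hb hc hd y).mp hy) h)
    f

end Vale.Agent.Lib.P335.H5
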