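import Vale.Agent.Lib.P335.H5.RelAvg

namespace Vale.Agent.Lib.P335.H5

open Finset
open Classical
open Vale.Agent.Lib.P335.Bip (ip)

variable {Om : Type} [Fintype Om]

theorem ip_comm (f g : Om → ℝ) : ip f g = ip g f := by
  unfold ip
  exact sum_congr rfl fun x _ => mul_comm _ _

theorem ip_add_left (f g h : Om → ℝ) : ip (f + g) h = ip f h + ip g h := by
  unfold ip
  rw [← sum_add_distrib]
  exact sum_congr rfl fun x _ => by simp [add_mul]

theorem ip_add_right (f g h : Om → ℝ) : ip f (g + h) = ip f g + ip f h := by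
  unfold ip
  rw [← sum_add_distrib]
  exact sum_congr rfl fun x _ => by simp [mul_add]

theorem ip_sub_left (f g h : Om → ℝ) : ip (f - g) h = ip f h - ip g h := by
  unfold ip
  rw [← sum_sub_distrib]
  exact sum_congr rfl fun x _ => by simp [sub_mul]

theorem ip_sub_right (f g h : Om → ℝ) : ip f (g - h) = ip f g - ip f h := by
  unfold ip
  rw [← sum_sub_distrib]
  exact sum_congr rfl fun x _ => by simp [mul_sub]

theorem ip_self_nonneg (f : Om → ℝ) : 0 ≤ ip f f := by
  unfold ip
  exact sum_nonneg fun x _ => mul_self_nonneg _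

/-- A symmetric operator for the counting inner product. -/
def IsSymm (A : Module.End ℝ (Om → ℝ)) : Prop := ∀ f g, ip (A f) g = ip f (A g)

/-- An orthogonal projection: a symmetric idempotent operator. -/
def IsOP (A : Module.End ℝ (Om → ℝ)) : Prop := IsSymm A ∧ IsIdempotentElem A

theorem IsOP.apply_apply {A : Module.End ℝ (Om → ℝ)} (h : IsOP A) (f : Om → ℝ) :
    A (A f) = A f := by
  have h2 : (A * A) f = A f := by rw [h.2.eq]
  simpa using h2

omit [Fintype Om] in
theorem commute_apply {A B : Module.End ℝ (Om → ℝ)} (h : Commute A B) (f : Om → ℝ) :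
    A (B f) = B (A f) := by
  have h2 : (A * B) f = (B * A) f := by rw [h.eq]
  simpa using h2

omit [Fintype Om] in
theorem commute_of_apply {A B : Module.End ℝ (Om → ℝ)} (h : ∀ f, A (B f) = B (A f)) :
    Commute A B := by
  show A * B = B * A
  apply LinearMap.ext
  intro f
  simpa using h f

theorem IsOP.one_sub {A : Module.End ℝ (Om → ℝ)} (h : IsOP A) : IsOP (1 - A) := by
  refine ⟨fun f g => ?_, h.2.one_sub⟩
  simp only [LinearMap.sub_apply, Module.End.one_apply]
  rw [ip_sub_left, ip_sub_right, h.1 f g]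

theorem IsOP.mul {A B : Module.End ℝ (Om → ℝ)} (hA : IsOP A) (hB : IsOP B)
    (hAB : Commute A B) : IsOP (A * B) := by
  refine ⟨fun f g => ?_, hA.2.mul_of_commute hAB hB.2⟩
  simp only [Module.End.mul_apply]
  rw [hA.1, hB.1, commute_apply hAB.symm g]

theorem IsOP.sub_of_le {A B : Module.End ℝ (Om → ℝ)} (hA : IsOP A) (hB : IsOP B)
    (h1 : A * B = B) (h2 : B * A = B) : IsOP (A - B) := by
  refine ⟨fun f g => ?_, ?_⟩
  · simp only [LinearMap.sub_apply]
    rw [ip_sub_left, ip_sub_right, hA.1, hB.1]
  · unfold IsIdempotentElem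
    rw [sub_mul, mul_sub, mul_sub, hA.2.eq, hB.2.eq, h1, h2]
    abel

theorem ip_proj_nonneg {A B : Module.End ℝ (Om → ℝ)} (hA : IsOP A) (hB : IsOP B)
    (f : Om → ℝ) (h : A (B f) = B (A f)) : 0 ≤ ip (A f) (B f) := by
  have e : ip (A f) (B f) = ip (A (B f)) (A (B f)) := by
    rw [hA.1 (B f) (A (B f)), hA.apply_apply, h, ← hB.1 (B f) (A f), hB.apply_apply, ip_comm]
  rw [e]
  exact ip_self_nonneg _

/-- The class average as a linear operator. -/
noncomputable def ravgL (r : Om → Om → Prop) : Module.End ℝ (Om → ℝ) where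
  toFun := ravg r
  map_add' := ravg_add r
  map_smul' := fun a f => by
    simp only [RingHom.id_apply]
    exact ravg_smul r a f

theorem ravgL_apply (r : Om → Om → Prop) (f : Om → ℝ) : ravgL r f = ravg r f := rfl

theorem ravgL_isOP {r : Om → Om → Prop} (hr : Equivalence r) : IsOP (ravgL r) := by
  refine ⟨fun f g => ravg_symm hr f g, ?_⟩
  show ravgL r * ravgL r = ravgL r
  apply LinearMap.ext
  intro f
  simp only [Module.End.mul_apply, ravgL_apply]
  exact ravg_idem hr f

/-- Symmetrisation under an involution as a linear operator. -/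
noncomputable def sigL (F : Om → Om) : Module.End ℝ (Om → ℝ) where
  toFun := fun f x => (f x + f (F x)) / 2
  map_add' := fun f g => by
    funext x
    simp only [Pi.add_apply]
    ring
  map_smul' := fun a f => by
    funext x
    simp only [Pi.smul_apply, smul_eq_mul, RingHom.id_apply]
    ring

omit [Fintype Om] in
theorem sigL_apply (F : Om → Om) (f : Om → ℝ) (x : Om) :
    sigL F f x = (f x + f (F x)) / 2 := rfl

theorem sum_comp_invol (F : Om → Om) (hF : ∀ x, F (F x) = x) (m : Om → ℝ) :
    ∑ x, m (F x) = ∑ x, m x :=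
  sum_nbij' F F (fun _ _ => mem_univ _) (fun _ _ => mem_univ _) (fun x _ => hF x)
    (fun x _ => hF x) (fun _ _ => rfl)

theorem sigL_isOP (F : Om → Om) (hF : ∀ x, F (F x) = x) : IsOP (sigL F) := by
  refine ⟨fun f g => ?_, ?_⟩
  · unfold ip
    have h1 := sum_comp_invol F hF (fun x => f (F x) * g x)
    simp only [hF] at h1
    simp only [sigL_apply]
    have e1 : ∑ x, (f x + f (F x)) / 2 * g x
        = (∑ x, f x * g x) / 2 + (∑ x, f (F x) * g x) / 2 := by
      rw [← add_div, ← sum_add_distrib, sum_div]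
      exact sum_congr rfl fun x _ => by ring
    have e2 : ∑ x, f x * ((g x + g (F x)) / 2)
        = (∑ x, f x * g x) / 2 + (∑ x, f x * g (F x)) / 2 := by
      rw [← add_div, ← sum_add_distrib, sum_div]
      exact sum_congr rfl fun x _ => by ring
    rw [e1, e2, h1]
  · show sigL F * sigL F = sigL F
    apply LinearMap.ext
    intro f
    funext x
    simp only [Module.End.mul_apply, sigL_apply, hF]
    ring

/-- The four-term inequality: for projections `P ≤ a`, `P' ≤ a'` with `a`, `a'` commuting,
`P` commuting with `a'` and `P'` with `a`, replacing `g` by `a a' g` does not increase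
`⟨(1 - P) g, (1 - P') g⟩`. -/
theorem four_term {a a' P P' : Module.End ℝ (Om → ℝ)}
    (ha : IsOP a) (ha' : IsOP a') (hP : IsOP P) (hP' : IsOP P')
    (hPa : P * a = P) (haP : a * P = P) (hP'a' : P' * a' = P') (ha'P' : a' * P' = P')
    (hc1 : Commute a a') (hc2 : Commute P a') (hc3 : Commute P' a) (g : Om → ℝ) :
    ip ((1 - P) (a (a' g))) ((1 - P') (a (a' g))) ≤ ip ((1 - P) g) ((1 - P') g) := by
  have e1 : (1 - P) g = (1 - a) g + (a - P) g := by
    simp only [LinearMap.sub_apply, Module.End.one_apply]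
    abel
  have e2 : (1 - P') g = (1 - a') g + (a' - P') g := by
    simp only [LinearMap.sub_apply, Module.End.one_apply]
    abel
  have o1 : IsOP (1 - a) := ha.one_sub
  have o2 : IsOP (1 - a') := ha'.one_sub
  have o3 : IsOP (a - P) := ha.sub_of_le hP haP hPa
  have o4 : IsOP (a' - P') := ha'.sub_of_le hP' ha'P' hP'a'
  have c11 : Commute (1 - a) (1 - a') :=
    (Commute.one_left _).sub_left ((Commute.one_right a).sub_right hc1)
  have c12 : Commute (1 - a) (a' - P') :=
    (Commute.one_left _).sub_left (hc1.sub_right hc3.symm)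
  have c21 : Commute (a - P) (1 - a') :=
    ((Commute.one_right a).sub_right hc1).sub_left ((Commute.one_right P).sub_right hc2)
  have t1 : 0 ≤ ip ((1 - a) g) ((1 - a') g) := ip_proj_nonneg o1 o2 g (commute_apply c11 g)
  have t2 : 0 ≤ ip ((1 - a) g) ((a' - P') g) := ip_proj_nonneg o1 o4 g (commute_apply c12 g)
  have t3 : 0 ≤ ip ((a - P) g) ((1 - a') g) := ip_proj_nonneg o3 o2 g (commute_apply c21 g)
  have k1 : (1 - P) (a (a' g)) = a' ((a - P) g) := by
    have : (1 - P) * (a * a') = a' * (a - P) := by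
      rw [sub_mul, one_mul, ← mul_assoc, hPa, mul_sub, ← hc1.eq, hc2.eq]
    have h2 := congrArg (fun T : Module.End ℝ (Om → ℝ) => T g) this
    simpa using h2
  have k2 : (1 - P') (a (a' g)) = a ((a' - P') g) := by
    have : (1 - P') * (a * a') = a * (a' - P') := by
      rw [sub_mul, one_mul, ← mul_assoc, hc3.eq, mul_assoc, hP'a', mul_sub]
    have h2 := congrArg (fun T : Module.End ℝ (Om → ℝ) => T g) this
    simpa using h2
  have k3 : a ((a - P) g) = (a - P) g := by
    have : a * (a - P) = a - P := by rw [mul_sub, ha.2.eq, haP]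
    have h2 := congrArg (fun T : Module.End ℝ (Om → ℝ) => T g) this
    simpa using h2
  have k4 : a' ((a' - P') g) = (a' - P') g := by
    have : a' * (a' - P') = a' - P' := by rw [mul_sub, ha'.2.eq, ha'P']
    have h2 := congrArg (fun T : Module.End ℝ (Om → ℝ) => T g) this
    simpa using h2
  have t4 : ip ((1 - P) (a (a' g))) ((1 - P') (a (a' g))) = ip ((a - P) g) ((a' - P') g) := by
    rw [k1, k2, ha'.1, ← commute_apply hc1, k4, ← ha.1, k3]
  rw [t4, e1, e2, ip_add_left, ip_add_right, ip_add_right]
  linarith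

end Vale.Agent.Lib.P335.H5
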