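import Vale.Agent.Lib.P335.H5.OpAlg

/-!
# Rectangle completion: two class averagings commute on a saturated set (model-free)

Let `R`, `R'` be equivalence relations on a finite type and `Z` a set saturated for both. If on
`Z` every chain `x R y R' z` can be completed to `x R' w R z`, and on `Z` two points related by
both relations are equal, then the two class averagings commute at the points of `Z`.
Consequently `∑_{x ∈ Z} (f - ravg R f)(x) (f - ravg R' f)(x) ≥ 0`.
-/

namespace Vale.Agent.Lib.P335.H5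

open Finset
open Classical
open Vale.Agent.Lib.P335.Bip (ip)

variable {Om : Type} [Fintype Om]

theorem card_rcls_le_of_rect {R R' : Om → Om → Prop} (hR : Equivalence R)
    (hR' : Equivalence R') (Z : Om → Prop)
    (hZR : ∀ x y, R x y → (Z x ↔ Z y)) (hZR' : ∀ x y, R' x y → (Z x ↔ Z y))
    (hrect : ∀ x y z, Z x → R x y → R' y z → ∃ w, R' x w ∧ R w z)
    (huniq : ∀ x y, Z x → R x y → R' x y → x = y)
    {x y : Om} (hx : Z x) (hxy : R x y) : (rcls R' y).card ≤ (rcls R' x).card := by
  let g : Om → Om := fun z => if h : ∃ w, R' x w ∧ R w z then Classical.choose h else z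
  apply card_le_card_of_injOn g
  · intro z hz
    rw [mem_coe, mem_rcls] at hz
    have h := hrect x y z hx hxy hz
    simp only [g, dif_pos h]
    rw [mem_coe, mem_rcls]
    exact (Classical.choose_spec h).1
  · intro z hz z' hz' hgz
    rw [mem_coe, mem_rcls] at hz hz'
    have h := hrect x y z hx hxy hz
    have h' := hrect x y z' hx hxy hz'
    simp only [g, dif_pos h, dif_pos h'] at hgz
    have s1 := (Classical.choose_spec h).2
    have s2 := (Classical.choose_spec h').2
    rw [hgz] at s1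
    have hzz' : R z z' := hR.trans (hR.symm s1) s2
    have hzz'2 : R' z z' := hR'.trans (hR'.symm hz) hz'
    have hZz : Z z := (hZR' y z hz).mp ((hZR x y hxy).mp hx)
    exact huniq z z' hZz hzz' hzz'2

theorem card_rcls_eq_of_rect {R R' : Om → Om → Prop} (hR : Equivalence R)
    (hR' : Equivalence R') (Z : Om → Prop)
    (hZR : ∀ x y, R x y → (Z x ↔ Z y)) (hZR' : ∀ x y, R' x y → (Z x ↔ Z y))
    (hrect : ∀ x y z, Z x → R x y → R' y z → ∃ w, R' x w ∧ R w z)
    (huniq : ∀ x y, Z x → R x y → R' x y → x = y)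
    {x y : Om} (hx : Z x) (hxy : R x y) : (rcls R' y).card = (rcls R' x).card :=
  le_antisymm (card_rcls_le_of_rect hR hR' Z hZR hZR' hrect huniq hx hxy)
    (card_rcls_le_of_rect hR hR' Z hZR hZR' hrect huniq ((hZR x y hxy).mp hx) (hR.symm hxy))

theorem ravg_ravg_of_rect {R R' : Om → Om → Prop} (hR : Equivalence R)
    (hR' : Equivalence R') (Z : Om → Prop)
    (hZR : ∀ x y, R x y → (Z x ↔ Z y)) (hZR' : ∀ x y, R' x y → (Z x ↔ Z y))
    (hrect : ∀ x y z, Z x → R x y → R' y z → ∃ w, R' x w ∧ R w z)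
    (huniq : ∀ x y, Z x → R x y → R' x y → x = y)
    (f : Om → ℝ) {x : Om} (hx : Z x) :
    ravg R (ravg R' f) x = (∑ z ∈ (rcls R x).biUnion (rcls R'), f z)
      / (((rcls R' x).card : ℝ) * ((rcls R x).card : ℝ)) := by
  rw [ravg_apply]
  have h1 : ∑ y ∈ rcls R x, ravg R' f y
      = ∑ y ∈ rcls R x, (∑ z ∈ rcls R' y, f z) / ((rcls R' x).card : ℝ) := by
    refine sum_congr rfl fun y hy => ?_
    rw [ravg_apply, card_rcls_eq_of_rect hR hR' Z hZR hZR' hrect huniq hx
      ((mem_rcls R x y).mp hy)]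
  have hdisj : (↑(rcls R x) : Set Om).PairwiseDisjoint (rcls R') := by
    intro y hy y' hy' hne
    rw [mem_coe, mem_rcls] at hy hy'
    show Disjoint (rcls R' y) (rcls R' y')
    rw [Finset.disjoint_left]
    intro z hz hz'
    rw [mem_rcls] at hz hz'
    apply hne
    exact huniq y y' ((hZR x y hy).mp hx) (hR.trans (hR.symm hy) hy')
      (hR'.trans hz (hR'.symm hz'))
  rw [h1, ← sum_div, ← sum_biUnion hdisj, div_div]

omit [Fintype Om] in
theorem rect_swap {R R' : Om → Om → Prop} (hR : Equivalence R)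
    (hR' : Equivalence R') (Z : Om → Prop)
    (hZR : ∀ x y, R x y → (Z x ↔ Z y)) (hZR' : ∀ x y, R' x y → (Z x ↔ Z y))
    (hrect : ∀ x y z, Z x → R x y → R' y z → ∃ w, R' x w ∧ R w z) :
    ∀ x y z, Z x → R' x y → R y z → ∃ w, R x w ∧ R' w z := by
  intro x y z hx hxy hyz
  have hz : Z z := (hZR y z hyz).mp ((hZR' x y hxy).mp hx)
  obtain ⟨w, hw1, hw2⟩ := hrect z y x hz (hR.symm hyz) (hR'.symm hxy)
  exact ⟨w, hR.symm hw2, hR'.symm hw1⟩

/-- Rectangle completion on a saturated set makes the two class averagings commute there. -/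
theorem ravg_comm_of_rect {R R' : Om → Om → Prop} (hR : Equivalence R)
    (hR' : Equivalence R') (Z : Om → Prop)
    (hZR : ∀ x y, R x y → (Z x ↔ Z y)) (hZR' : ∀ x y, R' x y → (Z x ↔ Z y))
    (hrect : ∀ x y z, Z x → R x y → R' y z → ∃ w, R' x w ∧ R w z)
    (huniq : ∀ x y, Z x → R x y → R' x y → x = y)
    (f : Om → ℝ) {x : Om} (hx : Z x) :
    ravg R (ravg R' f) x = ravg R' (ravg R f) x := by
  have hrect' := rect_swap hR hR' Z hZR hZR' hrect
  have huniq' : ∀ x y, Z x → R' x y → R x y → x = y := fun x y hx h1 h2 => huniq x y hx h2 h1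
  rw [ravg_ravg_of_rect hR hR' Z hZR hZR' hrect huniq f hx,
    ravg_ravg_of_rect hR' hR Z hZR' hZR hrect' huniq' f hx]
  have hset : (rcls R x).biUnion (rcls R') = (rcls R' x).biUnion (rcls R) := by
    ext z
    simp only [mem_biUnion, mem_rcls]
    constructor
    · rintro ⟨y, hxy, hyz⟩
      exact hrect x y z hx hxy hyz
    · rintro ⟨y, hxy, hyz⟩
      exact hrect' x y z hx hxy hyz
  rw [hset, mul_comm]

/-- The indicator of a set `Z` with values `1` on `Z`. -/
noncomputable def ind (Z : Om → Prop) : Om → ℝ := fun x => if Z x then 1 else 0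

omit [Fintype Om] in
theorem ind_sq (Z : Om → Prop) (x : Om) : ind Z x * ind Z x = ind Z x := by
  unfold ind
  split_ifs <;> simp

omit [Fintype Om] in
theorem ind_inv {r : Om → Om → Prop} {Z : Om → Prop} (h : ∀ x y, r x y → (Z x ↔ Z y))
    (x y : Om) (hxy : r x y) : ind Z x = ind Z y := by
  unfold ind
  by_cases hx : Z x
  · rw [if_pos hx, if_pos ((h x y hxy).mp hx)]
  · rw [if_neg hx, if_neg (fun hy => hx ((h x y hxy).mpr hy))]

/-- `(1 - P)` applied to a multiple by a function that is constant on the classes. -/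
theorem one_sub_ravgL_mul {r : Om → Om → Prop} (k : Om → ℝ)
    (hk : ∀ x y, r x y → k x = k y) (f : Om → ℝ) :
    (1 - ravgL r) (fun x => k x * f x) = fun x => k x * (f x - ravg r f x) := by
  funext x
  simp only [LinearMap.sub_apply, Module.End.one_apply, ravgL_apply, Pi.sub_apply]
  rw [ravg_mul_inv k f hk]
  ring

/-- `(1 - P)` applied to an indicator multiple, for an indicator constant on the classes. -/
theorem one_sub_ravgL_ind {r : Om → Om → Prop} {Z : Om → Prop}
    (h : ∀ x y, r x y → (Z x ↔ Z y)) (f : Om → ℝ) :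
    (1 - ravgL r) (fun x => ind Z x * f x) = fun x => ind Z x * (f x - ravg r f x) :=
  one_sub_ravgL_mul (ind Z) (ind_inv h) f

/-- The inner product of two multiples by a `0/1`-valued weight. -/
theorem ip_mul_mul (k A B : Om → ℝ) (hk : ∀ x, k x * k x = k x) :
    ip (fun x => k x * A x) (fun x => k x * B x) = ∑ x, k x * (A x * B x) := by
  unfold ip
  refine sum_congr rfl fun x _ => ?_
  calc k x * A x * (k x * B x) = (k x * k x) * (A x * B x) := by ring
    _ = k x * (A x * B x) := by rw [hk x]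

/-- STEP 0: the part of `⟨(1 - P) f, (1 - P') f⟩` carried by a saturated set with rectangle
completion is nonnegative. -/
theorem odd_part_nonneg {R R' : Om → Om → Prop} (hR : Equivalence R)
    (hR' : Equivalence R') (Z : Om → Prop)
    (hZR : ∀ x y, R x y → (Z x ↔ Z y)) (hZR' : ∀ x y, R' x y → (Z x ↔ Z y))
    (hrect : ∀ x y z, Z x → R x y → R' y z → ∃ w, R' x w ∧ R w z)
    (huniq : ∀ x y, Z x → R x y → R' x y → x = y)
    (f : Om → ℝ) :
    0 ≤ ∑ x, ind Z x * ((f x - ravg R f x) * (f x - ravg R' f x)) := by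
  set φ : Om → ℝ := fun x => ind Z x * f x with hφ
  have oP : IsOP (1 - ravgL R) := (ravgL_isOP hR).one_sub
  have oP' : IsOP (1 - ravgL R') := (ravgL_isOP hR').one_sub
  have hzero : ∀ x, ¬ Z x → φ x = 0 := by
    intro x hx
    simp [hφ, ind, hx]
  have hcomm : ravg R (ravg R' φ) = ravg R' (ravg R φ) := by
    funext x
    by_cases hx : Z x
    · exact ravg_comm_of_rect hR hR' Z hZR hZR' hrect huniq φ hx
    · rw [ravg_eq_zero_of, ravg_eq_zero_of]
      · intro y hy
        have hyZ : ¬ Z y := fun h => hx ((hZR' x y hy).mpr h)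
        exact ravg_eq_zero_of φ y fun z hz => hzero z fun h => hyZ ((hZR y z hz).mpr h)
      · intro y hy
        have hyZ : ¬ Z y := fun h => hx ((hZR x y hy).mpr h)
        exact ravg_eq_zero_of φ y fun z hz => hzero z fun h => hyZ ((hZR' y z hz).mpr h)
  have hAB : (1 - ravgL R) ((1 - ravgL R') φ) = (1 - ravgL R') ((1 - ravgL R) φ) := by
    simp only [LinearMap.sub_apply, Module.End.one_apply, ravgL_apply, ravg_sub, hcomm]
    abel
  have h0 := ip_proj_nonneg oP oP' φ hAB
  rw [hφ, one_sub_ravgL_ind hZR f, one_sub_ravgL_ind hZR' f] at h0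
  rw [ip_mul_mul (ind Z) _ _ (ind_sq Z)] at h0
  exact h0

end Vale.Agent.Lib.P335.H5
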