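import Vale.Agent.Lib.P335.Bip.Defs

/-!
# Class averages of an equivalence relation on a finite type (model-free)

`ravg r f x` is the mean of `f` over the class `rcls r x = {y | r x y}`. For an equivalence
relation `r` this operator is linear, symmetric for the counting inner product `Bip.ip`,
idempotent, and satisfies the tower property.
-/

namespace Vale.Agent.Lib.P335.H5

open Finset
open Classical
open Vale.Agent.Lib.P335.Bip (ip)

variable {Om : Type} [Fintype Om]

/-- The class of `x`: all `y` with `r x y`. -/
noncomputable def rcls (r : Om → Om → Prop) (x : Om) : Finset Om :=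
  univ.filter (fun y => r x y)

/-- The class average. -/
noncomputable def ravg (r : Om → Om → Prop) (f : Om → ℝ) : Om → ℝ :=
  fun x => (∑ y ∈ rcls r x, f y) / ((rcls r x).card : ℝ)

theorem mem_rcls (r : Om → Om → Prop) (x y : Om) : y ∈ rcls r x ↔ r x y := by
  simp [rcls]

theorem self_mem_rcls {r : Om → Om → Prop} (hr : Equivalence r) (x : Om) : x ∈ rcls r x :=
  (mem_rcls r x x).mpr (hr.refl x)

theorem rcls_eq {r : Om → Om → Prop} (hr : Equivalence r) {x y : Om} (h : r x y) :
    rcls r x = rcls r y := by
  ext z
  rw [mem_rcls, mem_rcls]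
  exact ⟨fun hz => hr.trans (hr.symm h) hz, fun hz => hr.trans h hz⟩

theorem card_rcls_pos {r : Om → Om → Prop} (hr : Equivalence r) (x : Om) :
    0 < (rcls r x).card :=
  card_pos.mpr ⟨x, self_mem_rcls hr x⟩

theorem card_rcls_ne_zero {r : Om → Om → Prop} (hr : Equivalence r) (x : Om) :
    ((rcls r x).card : ℝ) ≠ 0 := by
  have := card_rcls_pos hr x
  positivity

theorem ravg_apply (r : Om → Om → Prop) (f : Om → ℝ) (x : Om) :
    ravg r f x = (∑ y ∈ rcls r x, f y) / ((rcls r x).card : ℝ) := rfl

theorem ravg_add (r : Om → Om → Prop) (f g : Om → ℝ) :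
    ravg r (f + g) = ravg r f + ravg r g := by
  funext x
  simp only [ravg_apply, Pi.add_apply, sum_add_distrib, add_div]

theorem ravg_sub (r : Om → Om → Prop) (f g : Om → ℝ) :
    ravg r (f - g) = ravg r f - ravg r g := by
  funext x
  simp only [ravg_apply, Pi.sub_apply, sum_sub_distrib, sub_div]

theorem ravg_smul (r : Om → Om → Prop) (a : ℝ) (f : Om → ℝ) :
    ravg r (a • f) = a • ravg r f := by
  funext x
  simp only [ravg_apply, Pi.smul_apply, smul_eq_mul, ← mul_sum, mul_div_assoc]

theorem ravg_rel {r : Om → Om → Prop} (hr : Equivalence r) (f : Om → ℝ) {x y : Om}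
    (h : r x y) : ravg r f x = ravg r f y := by
  rw [ravg_apply, ravg_apply, rcls_eq hr h]

theorem ravg_apply_univ (r : Om → Om → Prop) (f : Om → ℝ) (x : Om) :
    ravg r f x = ∑ y : Om, if r x y then f y / ((rcls r x).card : ℝ) else 0 := by
  rw [ravg_apply, sum_div, rcls, sum_filter]

theorem ravg_symm {r : Om → Om → Prop} (hr : Equivalence r) (f g : Om → ℝ) :
    ip (ravg r f) g = ip f (ravg r g) := by
  unfold ip
  have h1 : ∑ x : Om, ravg r f x * g x
      = ∑ x : Om, ∑ y : Om, if r x y then f y * g x / ((rcls r x).card : ℝ) else 0 := by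
    refine sum_congr rfl fun x _ => ?_
    rw [ravg_apply_univ, sum_mul]
    refine sum_congr rfl fun y _ => ?_
    split_ifs
    · ring
    · simp
  have h2 : ∑ x : Om, f x * ravg r g x
      = ∑ x : Om, ∑ y : Om, if r x y then f x * g y / ((rcls r x).card : ℝ) else 0 := by
    refine sum_congr rfl fun x _ => ?_
    rw [ravg_apply_univ, mul_sum]
    refine sum_congr rfl fun y _ => ?_
    split_ifs
    · ring
    · simp
  rw [h1, h2, sum_comm]
  refine sum_congr rfl fun y _ => sum_congr rfl fun x _ => ?_
  by_cases h : r x y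
  · rw [if_pos h, if_pos (hr.symm h), rcls_eq hr h]
  · have h' : ¬ r y x := fun hh => h (hr.symm hh)
    rw [if_neg h, if_neg h']

/-- A function that is constant on the class of `x` equals its class average at `x`. -/
theorem ravg_eq_of_const {r : Om → Om → Prop} (hr : Equivalence r) (f : Om → ℝ) (x : Om)
    (h : ∀ y, r x y → f y = f x) : ravg r f x = f x := by
  rw [ravg_apply]
  have h1 : ∑ y ∈ rcls r x, f y = ∑ _y ∈ rcls r x, f x :=
    sum_congr rfl fun y hy => h y ((mem_rcls r x y).mp hy)
  rw [h1, sum_const, nsmul_eq_mul]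
  field_simp [card_rcls_ne_zero hr x]

theorem ravg_eq_self_iff {r : Om → Om → Prop} (hr : Equivalence r) (f : Om → ℝ) :
    ravg r f = f ↔ ∀ x y : Om, r x y → f x = f y := by
  constructor
  · intro h x y hxy
    rw [← h]
    exact ravg_rel hr f hxy
  · intro h
    funext x
    exact ravg_eq_of_const hr f x fun y hy => (h x y hy).symm

theorem ravg_idem {r : Om → Om → Prop} (hr : Equivalence r) (f : Om → ℝ) :
    ravg r (ravg r f) = ravg r f :=
  (ravg_eq_self_iff hr (ravg r f)).mpr fun _ _ hxy => ravg_rel hr f hxy

/-- Two functions with the same inner product against every function are equal. -/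
theorem eq_of_ip_eq (h h' : Om → ℝ) (hh : ∀ g : Om → ℝ, ip h g = ip h' g) : h = h' := by
  funext x
  have := hh (fun y => if y = x then 1 else 0)
  unfold ip at this
  simpa using this

/-- Tower property: if `r` refines `r'` then `ravg r (ravg r' f) = ravg r' f`. -/
theorem ravg_tower_left {r r' : Om → Om → Prop} (hr : Equivalence r) (hr' : Equivalence r')
    (hsub : ∀ x y, r x y → r' x y) (f : Om → ℝ) : ravg r (ravg r' f) = ravg r' f :=
  (ravg_eq_self_iff hr (ravg r' f)).mpr fun x y hxy => ravg_rel hr' f (hsub x y hxy)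

/-- Tower property: if `r` refines `r'` then `ravg r' (ravg r f) = ravg r' f`. -/
theorem ravg_tower_right {r r' : Om → Om → Prop} (hr : Equivalence r) (hr' : Equivalence r')
    (hsub : ∀ x y, r x y → r' x y) (f : Om → ℝ) : ravg r' (ravg r f) = ravg r' f := by
  apply eq_of_ip_eq
  intro g
  rw [ravg_symm hr', ravg_symm hr, ravg_tower_left hr hr' hsub g, ravg_symm hr']

/-- Multiplication by a function that is constant on classes commutes with the average. -/
theorem ravg_mul_inv {r : Om → Om → Prop} (k f : Om → ℝ)
    (hk : ∀ x y, r x y → k x = k y) : ravg r (fun x => k x * f x) = fun x => k x * ravg r f x := by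
  funext x
  rw [ravg_apply, ravg_apply, ← mul_div_assoc, mul_sum]
  congr 1
  refine sum_congr rfl fun y hy => ?_
  rw [hk x y ((mem_rcls r x y).mp hy)]

/-- The average of a function vanishing on the class of `x` vanishes at `x`. -/
theorem ravg_eq_zero_of {r : Om → Om → Prop} (f : Om → ℝ) (x : Om)
    (h : ∀ y, r x y → f y = 0) : ravg r f x = 0 := by
  rw [ravg_apply, sum_eq_zero fun y hy => h y ((mem_rcls r x y).mp hy), zero_div]

/-- Composition with a map that preserves every class does not change the average. -/
theorem ravg_comp_invol {r : Om → Om → Prop} (hr : Equivalence r) (F : Om → Om)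
    (hF : ∀ x, F (F x) = x) (hFr : ∀ x, r x (F x)) (f : Om → ℝ) :
    ravg r (fun x => f (F x)) = ravg r f := by
  funext x
  rw [ravg_apply, ravg_apply]
  congr 1
  refine sum_nbij' F F ?_ ?_ ?_ ?_ ?_
  · intro y hy
    rw [mem_rcls] at hy ⊢
    exact hr.trans hy (hFr y)
  · intro y hy
    rw [mem_rcls] at hy ⊢
    exact hr.trans hy (hFr y)
  · intro y _
    exact hF y
  · intro y _
    exact hF y
  · intro y _
    rfl

/-- The average is invariant under a map that preserves every class. -/
theorem ravg_apply_invol {r : Om → Om → Prop} (hr : Equivalence r) (F : Om → Om)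
    (hFr : ∀ x, r x (F x)) (f : Om → ℝ) (x : Om) : ravg r f (F x) = ravg r f x :=
  (ravg_rel hr f (hFr x)).symm

/-- If `F` is an involution mapping classes to classes, the average commutes with the
composition by `F`. -/
theorem ravg_comp_equivar {r : Om → Om → Prop} (F : Om → Om)
    (hF : ∀ x, F (F x) = x) (hFr : ∀ x y, r x y → r (F x) (F y)) (f : Om → ℝ) (x : Om) :
    ravg r (fun y => f (F y)) x = ravg r f (F x) := by
  rw [ravg_apply, ravg_apply]
  have hc : (rcls r x).card = (rcls r (F x)).card := by
    refine card_nbij' F F ?_ ?_ ?_ ?_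
    · intro y hy
      simp only [coe_filter, rcls, mem_univ, true_and, Set.mem_ofPred_eq] at hy ⊢
      exact hFr x y hy
    · intro y hy
      simp only [coe_filter, rcls, mem_univ, true_and, Set.mem_ofPred_eq] at hy ⊢
      have := hFr (F x) y hy
      rwa [hF] at this
    · intro y _
      exact hF y
    · intro y _
      exact hF y
  rw [hc]
  congr 1
  refine sum_nbij' F F ?_ ?_ ?_ ?_ ?_
  · intro y hy
    rw [mem_rcls] at hy ⊢
    exact hFr x y hy
  · intro y hy
    rw [mem_rcls] at hy ⊢
    have := hFr (F x) y hy
    rwa [hF] at this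
  · intro y _
    exact hF y
  · intro y _
    exact hF y
  · intro y _
    rfl

end Vale.Agent.Lib.P335.H5
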