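import Vale.Agent.Lib.P335.H5.Rect

/-!
# The abstract two-orbit inequality (model-free form of the disjoint-pair inequality)

Data: four equivalence relations `rb`, `rb2` (the two orbit relations), `ra ⊆ rb`, `ra2 ⊆ rb2`
on a finite type, an involution `F` preserving the classes of `rb` and of `rb2`, and a set `Z`
saturated for `rb` and `rb2`. Under the relational hypotheses listed in `two_orbit` we get

`(1/2) ∑_x (f x - f (F x))^2 - kapR rb N (f - P f) - kapR rb2 N (f - P' f)
    ≤ 2 ⟨f - P f, f - P' f⟩`,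

where `P`, `P'` are the class averages of `rb`, `rb2`, `N` is the set of points moved by `F`
and `kapR r N g = ∑_{x ∈ N} (mean of g over the part of the r-class of x inside N)^2`.
-/

namespace Vale.Agent.Lib.P335.H5

open Finset
open Classical
open Vale.Agent.Lib.P335.Bip (ip)

variable {Om : Type} [Fintype Om]

/-- The sum over `N` of the squared means of `g` over the parts of the `r`-classes in `N`. -/
noncomputable def kapR (r : Om → Om → Prop) (N : Om → Prop) (g : Om → ℝ) : ℝ :=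
  ∑ x ∈ univ.filter N,
    ((∑ y ∈ (rcls r x).filter N, g y) / (((rcls r x).filter N).card : ℝ)) ^ 2

omit [Fintype Om] in
theorem restrict_equiv {r : Om → Om → Prop} (hr : Equivalence r) (N : Om → Prop) :
    Equivalence (fun x y => r x y ∧ (N x ↔ N y)) :=
  ⟨fun x => ⟨hr.refl x, Iff.rfl⟩, fun h => ⟨hr.symm h.1, h.2.symm⟩,
    fun h1 h2 => ⟨hr.trans h1.1 h2.1, h1.2.trans h2.2⟩⟩

theorem rcls_restrict (r : Om → Om → Prop) (N : Om → Prop) {x : Om} (hx : N x) :
    rcls (fun x y => r x y ∧ (N x ↔ N y)) x = (rcls r x).filter N := by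
  ext y
  simp only [rcls, mem_filter, mem_univ, true_and]
  constructor
  · rintro ⟨h1, h2⟩
    exact ⟨h1, h2.mp hx⟩
  · rintro ⟨h1, h2⟩
    exact ⟨h1, ⟨fun _ => h2, fun _ => hx⟩⟩

/-- Against a function that is constant on the parts of the classes inside `N`, a function may
be replaced by its means over these parts. -/
theorem sum_N_mul_eq {r : Om → Om → Prop} (hr : Equivalence r) (N : Om → Prop)
    (φ u : Om → ℝ) (hφ : ∀ x y, N x → N y → r x y → φ x = φ y) :
    ∑ x ∈ univ.filter N, φ x * u x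
      = ∑ x ∈ univ.filter N, φ x *
          ((∑ y ∈ (rcls r x).filter N, u y) / (((rcls r x).filter N).card : ℝ)) := by
  have hE := restrict_equiv hr N
  have hinv : ∀ x y, (r x y ∧ (N x ↔ N y)) → ind N x * φ x = ind N y * φ y := by
    intro x y hxy
    unfold ind
    by_cases hx : N x
    · have hy : N y := hxy.2.mp hx
      rw [if_pos hx, if_pos hy, hφ x y hx hy hxy.1]
    · have hy : ¬ N y := fun h => hx (hxy.2.mpr h)
      rw [if_neg hx, if_neg hy, zero_mul, zero_mul]
  have h1 : ravg (fun x y => r x y ∧ (N x ↔ N y)) (fun x => ind N x * φ x)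
      = fun x => ind N x * φ x :=
    (ravg_eq_self_iff hE _).mpr hinv
  have h2 : ip (fun x => ind N x * φ x) u
      = ip (fun x => ind N x * φ x) (ravg (fun x y => r x y ∧ (N x ↔ N y)) u) := by
    rw [← ravg_symm hE, h1]
  unfold ip at h2
  rw [sum_filter, sum_filter]
  have e1 : ∑ x, (if N x then φ x * u x else 0) = ∑ x, ind N x * φ x * u x := by
    refine sum_congr rfl fun x _ => ?_
    unfold ind
    split_ifs <;> simp
  have e2 : ∑ x, (if N x then φ x *
        ((∑ y ∈ (rcls r x).filter N, u y) / (((rcls r x).filter N).card : ℝ)) else 0)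
      = ∑ x, ind N x * φ x * ravg (fun x y => r x y ∧ (N x ↔ N y)) u x := by
    refine sum_congr rfl fun x _ => ?_
    unfold ind
    split_ifs with hx
    · rw [ravg_apply, rcls_restrict r N hx, one_mul]
    · simp
  rw [e1, e2, h2]

/-- Jensen step: a function on `N` that is constant on the parts of the classes inside `N` and
satisfies `∑_N φ^2 = ∑_N φ u` has `∑_N φ^2 ≤ kapR r N u`. -/
theorem sq_le_kap {r : Om → Om → Prop} (hr : Equivalence r) (N : Om → Prop)
    (φ u : Om → ℝ) (hφ : ∀ x y, N x → N y → r x y → φ x = φ y)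
    (h2 : ∑ x ∈ univ.filter N, φ x ^ 2 = ∑ x ∈ univ.filter N, φ x * u x) :
    ∑ x ∈ univ.filter N, φ x ^ 2 ≤ kapR r N u := by
  have h3 := sum_N_mul_eq hr N φ u hφ
  let T : Om → ℝ := fun x =>
    (∑ y ∈ (rcls r x).filter N, u y) / (((rcls r x).filter N).card : ℝ)
  show ∑ x ∈ univ.filter N, φ x ^ 2 ≤ ∑ x ∈ univ.filter N, T x ^ 2
  have h4 : 0 ≤ ∑ x ∈ univ.filter N, (φ x - T x) ^ 2 := sum_nonneg fun x _ => sq_nonneg _
  have h5 : ∑ x ∈ univ.filter N, (φ x - T x) ^ 2
      = ∑ x ∈ univ.filter N, φ x ^ 2 - 2 * ∑ x ∈ univ.filter N, φ x * T x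
        + ∑ x ∈ univ.filter N, T x ^ 2 := by
    rw [mul_sum, ← sum_sub_distrib, ← sum_add_distrib]
    exact sum_congr rfl fun x _ => by ring
  have h6 : ∑ x ∈ univ.filter N, φ x ^ 2 = ∑ x ∈ univ.filter N, φ x * T x := by
    rw [h2, h3]
  linarith

theorem ravg_half_add (r : Om → Om → Prop) (f g : Om → ℝ) :
    ravg r (fun y => (f y + g y) / 2) = fun x => (ravg r f x + ravg r g x) / 2 := by
  funext x
  simp only [ravg_apply]
  rw [← sum_div, sum_add_distrib]
  ring

theorem ravg_sym_eq {r : Om → Om → Prop} (hr : Equivalence r) (F : Om → Om)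
    (hF : ∀ x, F (F x) = x) (hFr : ∀ x, r x (F x)) (f : Om → ℝ) :
    ravg r (fun y => (f y + f (F y)) / 2) = ravg r f := by
  rw [ravg_half_add r f (fun y => f (F y)), ravg_comp_invol hr F hF hFr f]
  funext x
  ring

/-- STEP 1: splitting off the part of `f` that is odd under the involution. -/
theorem even_split {rb rb2 : Om → Om → Prop} (hrb : Equivalence rb) (hrb2 : Equivalence rb2)
    (F : Om → Om) (hF : ∀ x, F (F x) = x) (hFb : ∀ x, rb x (F x)) (hFb2 : ∀ x, rb2 x (F x))
    (ε : Om → ℝ) (hεF : ∀ x, ε (F x) = ε x) (hε1 : ∀ x, F x ≠ x → ε x = 1) (f : Om → ℝ) :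
    ∑ x, ε x * ((f x - ravg rb f x) * (f x - ravg rb2 f x))
      = ∑ x, ε x * (((f x + f (F x)) / 2 - ravg rb (fun y => (f y + f (F y)) / 2) x)
            * ((f x + f (F x)) / 2 - ravg rb2 (fun y => (f y + f (F y)) / 2) x))
        + (1 / 4) * ∑ x, (f x - f (F x)) ^ 2 := by
  have hP : ravg rb (fun y => (f y + f (F y)) / 2) = ravg rb f := ravg_sym_eq hrb F hF hFb f
  have hP' : ravg rb2 (fun y => (f y + f (F y)) / 2) = ravg rb2 f :=
    ravg_sym_eq hrb2 F hF hFb2 f
  rw [hP, hP']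
  let m : Om → ℝ := fun x => ε x * ((f x - f (F x)) / 2)
      * (((f x + f (F x)) / 2 - ravg rb f x) + ((f x + f (F x)) / 2 - ravg rb2 f x))
  have hmF : ∀ x, m (F x) = - m x := by
    intro x
    simp only [m, hF, hεF, ravg_apply_invol hrb F hFb f x, ravg_apply_invol hrb2 F hFb2 f x]
    ring
  have hm0 : ∑ x, m x = 0 := by
    have h1 := sum_comp_invol F hF m
    have h2 : ∑ x, m (F x) = - ∑ x, m x := by
      rw [← sum_neg_distrib]
      exact sum_congr rfl fun x _ => hmF x
    linarith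
  have hk : ∑ x, ε x * ((f x - f (F x)) / 2) ^ 2 = (1 / 4) * ∑ x, (f x - f (F x)) ^ 2 := by
    rw [mul_sum]
    refine sum_congr rfl fun x _ => ?_
    by_cases hx : F x = x
    · rw [hx]
      simp
    · rw [hε1 x hx]
      ring
  have hpt : ∀ x, ε x * ((f x - ravg rb f x) * (f x - ravg rb2 f x))
      = ε x * (((f x + f (F x)) / 2 - ravg rb f x) * ((f x + f (F x)) / 2 - ravg rb2 f x))
        + m x + ε x * ((f x - f (F x)) / 2) ^ 2 := by
    intro x
    simp only [m]
    ring
  rw [sum_congr rfl fun x _ => hpt x, sum_add_distrib, sum_add_distrib, hm0, hk]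
  ring

/-- STEP 2: the four-term inequality with a `0/1` weight that is constant on all classes. -/
theorem even_four_term {rb rb2 ra ra2 : Om → Om → Prop}
    (hrb : Equivalence rb) (hrb2 : Equivalence rb2) (hra : Equivalence ra)
    (hra2 : Equivalence ra2)
    (hab : ∀ x y, ra x y → rb x y) (hab2 : ∀ x y, ra2 x y → rb2 x y)
    (hC1 : ∀ f, ravg ra (ravg ra2 f) = ravg ra2 (ravg ra f))
    (hC2 : ∀ f, ravg rb (ravg ra2 f) = ravg ra2 (ravg rb f))
    (hC3 : ∀ f, ravg rb2 (ravg ra f) = ravg ra (ravg rb2 f))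
    (ε : Om → ℝ) (hεsq : ∀ x, ε x * ε x = ε x)
    (hεb : ∀ x y, rb x y → ε x = ε y) (hεb2 : ∀ x y, rb2 x y → ε x = ε y) (g : Om → ℝ) :
    ∑ x, ε x * ((ravg ra (ravg ra2 g) x - ravg rb (ravg ra (ravg ra2 g)) x)
          * (ravg ra (ravg ra2 g) x - ravg rb2 (ravg ra (ravg ra2 g)) x))
      ≤ ∑ x, ε x * ((g x - ravg rb g x) * (g x - ravg rb2 g x)) := by
  have oa := ravgL_isOP hra
  have oa' := ravgL_isOP hra2
  have oP := ravgL_isOP hrb
  have oP' := ravgL_isOP hrb2
  have hPa : ravgL rb * ravgL ra = ravgL rb :=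
    LinearMap.ext fun f => ravg_tower_right hra hrb hab f
  have haP : ravgL ra * ravgL rb = ravgL rb :=
    LinearMap.ext fun f => ravg_tower_left hra hrb hab f
  have hP'a' : ravgL rb2 * ravgL ra2 = ravgL rb2 :=
    LinearMap.ext fun f => ravg_tower_right hra2 hrb2 hab2 f
  have ha'P' : ravgL ra2 * ravgL rb2 = ravgL rb2 :=
    LinearMap.ext fun f => ravg_tower_left hra2 hrb2 hab2 f
  have hc1 : Commute (ravgL ra) (ravgL ra2) := commute_of_apply hC1
  have hc2 : Commute (ravgL rb) (ravgL ra2) := commute_of_apply hC2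
  have hc3 : Commute (ravgL rb2) (ravgL ra) := commute_of_apply hC3
  have key := four_term oa oa' oP oP' hPa haP hP'a' ha'P' hc1 hc2 hc3 (fun x => ε x * g x)
  have hεa : ∀ x y, ra x y → ε x = ε y := fun x y h => hεb x y (hab x y h)
  have hεa2 : ∀ x y, ra2 x y → ε x = ε y := fun x y h => hεb2 x y (hab2 x y h)
  have e1 : ravgL ra (ravgL ra2 (fun x => ε x * g x))
      = fun x => ε x * ravg ra (ravg ra2 g) x := by
    rw [ravgL_apply, ravgL_apply, ravg_mul_inv ε g hεa2, ravg_mul_inv ε _ hεa]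
  rw [e1, one_sub_ravgL_mul ε hεb, one_sub_ravgL_mul ε hεb2, one_sub_ravgL_mul ε hεb,
    one_sub_ravgL_mul ε hεb2, ip_mul_mul ε _ _ hεsq, ip_mul_mul ε _ _ hεsq] at key
  exact key

/-- STEP 3: for `h` invariant under `ra` and `ra2`, the even part is carried by the moved
points of `F`. -/
theorem even_to_N {rb rb2 ra ra2 : Om → Om → Prop}
    (hrb : Equivalence rb) (hrb2 : Equivalence rb2)
    (F : Om → Om) (Z N : Om → Prop) (hNF : ∀ x, N x ↔ F x ≠ x) (hZF : ∀ x, Z x → F x = x)
    (hE : ∀ x, ¬ Z x → F x = x → (∀ y, rb x y → ra x y) ∨ (∀ y, rb2 x y → ra2 x y))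
    (h : Om → ℝ) (hha : ∀ x y, ra x y → h x = h y) (hha2 : ∀ x y, ra2 x y → h x = h y) :
    ∑ x, ind (fun x => ¬ Z x) x * ((h x - ravg rb h x) * (h x - ravg rb2 h x))
      = ∑ x ∈ univ.filter N, (h x - ravg rb h x) * (h x - ravg rb2 h x) := by
  rw [sum_filter]
  refine sum_congr rfl fun x _ => ?_
  by_cases hx : N x
  · have hz : ¬ Z x := fun hz => (hNF x).mp hx (hZF x hz)
    rw [if_pos hx]
    unfold ind
    rw [if_pos hz, one_mul]
  · rw [if_neg hx]
    have hx' : F x = x := by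
      by_contra hne
      exact hx ((hNF x).mpr hne)
    by_cases hz : Z x
    · unfold ind
      rw [if_neg (fun h' => h' hz), zero_mul]
    · rcases hE x hz hx' with h1 | h1
      · have : ravg rb h x = h x :=
          ravg_eq_of_const hrb h x fun y hy => (hha x y (h1 y hy)).symm
        rw [this, sub_self, zero_mul, mul_zero]
      · have : ravg rb2 h x = h x :=
          ravg_eq_of_const hrb2 h x fun y hy => (hha2 x y (h1 y hy)).symm
        rw [this, sub_self, mul_zero, mul_zero]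

omit [Fintype Om] in
theorem moved_invol (F : Om → Om) (hF : ∀ x, F (F x) = x) (x : Om) :
    F (F x) ≠ F x ↔ F x ≠ x := by
  rw [hF]
  exact ne_comm

/-- STEP 4: on the moved points of `F`, the sum of squares of `(1 - P) h`, where
`h = a a' σ f`, is bounded by `kapR`. -/
theorem kap_bound {rb ra ra2 : Om → Om → Prop} (hrb : Equivalence rb) (hra : Equivalence ra)
    (hra2 : Equivalence ra2)
    (F : Om → Om) (N : Om → Prop) (hNF : ∀ x, N x ↔ F x ≠ x)
    (hF : ∀ x, F (F x) = x) (hFb : ∀ x, rb x (F x))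
    (hFa : ∀ x y, ra x y → ra (F x) (F y)) (hFa2 : ∀ x y, ra2 x y → ra2 (F x) (F y))
    (hNa : ∀ x y, ra x y → F x = x → F y = y) (hNa2 : ∀ x y, ra2 x y → F x = x → F y = y)
    (hab : ∀ x y, ra x y → rb x y)
    (hC1 : ∀ f, ravg ra (ravg ra2 f) = ravg ra2 (ravg ra f))
    (hC2 : ∀ f, ravg rb (ravg ra2 f) = ravg ra2 (ravg rb f))
    (hN : ∀ x y, F x ≠ x → F y ≠ y → rb x y → ra x y ∨ ra x (F y))
    (f : Om → ℝ) :
    ∑ x ∈ univ.filter N,
        (ravg ra (ravg ra2 (fun x => (f x + f (F x)) / 2)) x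
          - ravg rb (ravg ra (ravg ra2 (fun x => (f x + f (F x)) / 2))) x) ^ 2
      ≤ kapR rb N (f - ravg rb f) := by
  have oa := ravgL_isOP hra
  have oa' := ravgL_isOP hra2
  have oP := ravgL_isOP hrb
  have oσ := sigL_isOP F hF
  have hPa : ravgL rb * ravgL ra = ravgL rb :=
    LinearMap.ext fun f => ravg_tower_right hra hrb hab f
  have haP : ravgL ra * ravgL rb = ravgL rb :=
    LinearMap.ext fun f => ravg_tower_left hra hrb hab f
  have c1 : Commute (ravgL ra) (ravgL ra2) := commute_of_apply hC1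
  have cσ : Commute (ravgL ra) (sigL F) := by
    apply commute_of_apply
    intro f
    funext x
    show ravg ra (fun y => (f y + f (F y)) / 2) x = (ravg ra f x + ravg ra f (F x)) / 2
    rw [ravg_half_add ra f (fun y => f (F y))]
    show (ravg ra f x + ravg ra (fun y => f (F y)) x) / 2 = _
    rw [ravg_comp_equivar F hF hFa f x]
  have cσ' : Commute (ravgL ra2) (sigL F) := by
    apply commute_of_apply
    intro f
    funext x
    show ravg ra2 (fun y => (f y + f (F y)) / 2) x = (ravg ra2 f x + ravg ra2 f (F x)) / 2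
    rw [ravg_half_add ra2 f (fun y => f (F y))]
    show (ravg ra2 f x + ravg ra2 (fun y => f (F y)) x) / 2 = _
    rw [ravg_comp_equivar F hF hFa2 f x]
  have cPa : Commute (ravgL rb) (ravgL ra) := by
    show ravgL rb * ravgL ra = ravgL ra * ravgL rb
    rw [hPa, haP]
  have cPa' : Commute (ravgL rb) (ravgL ra2) := commute_of_apply hC2
  have cPσ : Commute (ravgL rb) (sigL F) := by
    apply commute_of_apply
    intro f
    funext x
    show ravg rb (fun y => (f y + f (F y)) / 2) x = (ravg rb f x + ravg rb f (F x)) / 2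
    rw [ravg_sym_eq hrb F hF hFb f, ravg_apply_invol hrb F hFb f x]
    ring
  have oΘ : IsOP (ravgL ra * ravgL ra2 * sigL F) := (oa.mul oa' c1).mul oσ (cσ.mul_left cσ')
  have cPΘ : Commute (ravgL rb) (ravgL ra * ravgL ra2 * sigL F) :=
    (cPa.mul_right cPa').mul_right cPσ
  have cΘY : Commute (ravgL ra * ravgL ra2 * sigL F) (1 - ravgL rb) :=
    (Commute.one_right _).sub_right cPΘ.symm
  let h : Om → ℝ := ravg ra (ravg ra2 (fun x => (f x + f (F x)) / 2))
  let φ : Om → ℝ := fun x => h x - ravg rb h x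
  let u : Om → ℝ := f - ravg rb f
  have hΘf : (ravgL ra * ravgL ra2 * sigL F) f = h := rfl
  have hu : u = (1 - ravgL rb) f := rfl
  have hΘu : (ravgL ra * ravgL ra2 * sigL F) u = φ := by
    rw [hu, commute_apply cΘY f, hΘf]
    rfl
  -- invariance of `h` under the involution
  have hgF : (fun w => (f (F w) + f (F (F w))) / 2) = fun w => (f w + f (F w)) / 2 := by
    funext w
    rw [hF, add_comm]
  have hFinv : ∀ y, h (F y) = h y := by
    intro y
    have e1 := ravg_comp_equivar F hF hFa (ravg ra2 (fun x => (f x + f (F x)) / 2)) y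
    have e2 : (fun z => ravg ra2 (fun x => (f x + f (F x)) / 2) (F z))
        = ravg ra2 (fun x => (f x + f (F x)) / 2) := by
      funext z
      rw [← ravg_comp_equivar F hF hFa2 (fun x => (f x + f (F x)) / 2) z, hgF]
    rw [e2] at e1
    exact e1.symm
  have hφ : ∀ x y, N x → N y → rb x y → φ x = φ y := by
    intro x y hx hy hxy
    have e1 : ravg rb h x = ravg rb h y := ravg_rel hrb h hxy
    have e2 : h x = h y := by
      rcases hN x y ((hNF x).mp hx) ((hNF y).mp hy) hxy with h1 | h1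
      · exact ravg_rel hra _ h1
      · exact (ravg_rel hra _ h1).trans (hFinv y)
    show h x - ravg rb h x = h y - ravg rb h y
    rw [e1, e2]
  -- the indicator of the moved points is invariant under `ra`, `ra2` and `F`
  have hNiff : ∀ {r : Om → Om → Prop}, (∀ x y, r x y → r y x) →
      (∀ x y, r x y → F x = x → F y = y) → ∀ x y, r x y → (N x ↔ N y) := by
    intro r hs hr x y hxy
    rw [hNF x, hNF y]
    exact not_congr ⟨hr x y hxy, hr y x (hs x y hxy)⟩
  have hνa : ∀ x y, ra x y → ind N x = ind N y :=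
    ind_inv (hNiff (fun _ _ h => hra.symm h) hNa)
  have hνa2 : ∀ x y, ra2 x y → ind N x = ind N y :=
    ind_inv (hNiff (fun _ _ h => hra2.symm h) hNa2)
  have hνF : ∀ x, ind N (F x) = ind N x := by
    intro x
    have hiff : N (F x) ↔ N x := by
      rw [hNF (F x), hNF x]
      exact moved_invol F hF x
    unfold ind
    by_cases hx : N x
    · rw [if_pos hx, if_pos (hiff.mpr hx)]
    · rw [if_neg hx, if_neg (fun h' => hx (hiff.mp h'))]
  have hΘν : (ravgL ra * ravgL ra2 * sigL F) (fun x => ind N x * u x)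
      = fun x => ind N x * φ x := by
    have s1 : sigL F (fun x => ind N x * u x) = fun x => ind N x * sigL F u x := by
      funext x
      simp only [sigL_apply, hνF]
      ring
    have s2 : (ravgL ra * ravgL ra2 * sigL F) (fun x => ind N x * u x)
        = ravg ra (ravg ra2 (sigL F (fun x => ind N x * u x))) := rfl
    rw [s2, s1, ravg_mul_inv _ _ hνa2, ravg_mul_inv _ _ hνa]
    have s3 : ravg ra (ravg ra2 (sigL F u)) = φ := hΘu
    rw [s3]
  have h2 : ∑ x ∈ univ.filter N, φ x ^ 2 = ∑ x ∈ univ.filter N, φ x * u x := by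
    have k1 : ip (fun x => ind N x * φ x) φ = ip (fun x => ind N x * u x) φ := by
      rw [← hΘν]
      nth_rewrite 1 [← hΘu]
      rw [oΘ.1, oΘ.apply_apply, hΘu]
    unfold ip at k1
    rw [sum_filter, sum_filter]
    have e1 : ∑ x, (if N x then φ x ^ 2 else 0) = ∑ x, ind N x * φ x * φ x := by
      refine sum_congr rfl fun x _ => ?_
      unfold ind
      split_ifs <;> ring
    have e2 : ∑ x, (if N x then φ x * u x else 0) = ∑ x, ind N x * u x * φ x := by
      refine sum_congr rfl fun x _ => ?_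
      unfold ind
      split_ifs <;> ring
    rw [e1, e2, k1]
  exact sq_le_kap hrb N φ u hφ h2

/-- **The abstract two-orbit inequality.** -/
theorem two_orbit (rb rb2 ra ra2 : Om → Om → Prop) (F : Om → Om) (Z N : Om → Prop)
    (hrb : Equivalence rb) (hrb2 : Equivalence rb2) (hra : Equivalence ra)
    (hra2 : Equivalence ra2)
    (hNF : ∀ x, N x ↔ F x ≠ x)
    (hF : ∀ x, F (F x) = x) (hFb : ∀ x, rb x (F x)) (hFb2 : ∀ x, rb2 x (F x))
    (hFa : ∀ x y, ra x y → ra (F x) (F y)) (hFa2 : ∀ x y, ra2 x y → ra2 (F x) (F y))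
    (hNa : ∀ x y, ra x y → F x = x → F y = y) (hNa2 : ∀ x y, ra2 x y → F x = x → F y = y)
    (hab : ∀ x y, ra x y → rb x y) (hab2 : ∀ x y, ra2 x y → rb2 x y)
    (hC1 : ∀ f, ravg ra (ravg ra2 f) = ravg ra2 (ravg ra f))
    (hC2 : ∀ f, ravg rb (ravg ra2 f) = ravg ra2 (ravg rb f))
    (hC3 : ∀ f, ravg rb2 (ravg ra f) = ravg ra (ravg rb2 f))
    (hZb : ∀ x y, rb x y → (Z x ↔ Z y)) (hZb2 : ∀ x y, rb2 x y → (Z x ↔ Z y))
    (hZF : ∀ x, Z x → F x = x)
    (hrect : ∀ x y z, Z x → rb x y → rb2 y z → ∃ w, rb2 x w ∧ rb w z)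
    (hZuniq : ∀ x y, Z x → rb x y → rb2 x y → x = y)
    (hE : ∀ x, ¬ Z x → F x = x → (∀ y, rb x y → ra x y) ∨ (∀ y, rb2 x y → ra2 x y))
    (hN : ∀ x y, F x ≠ x → F y ≠ y → rb x y → ra x y ∨ ra x (F y))
    (hN2 : ∀ x y, F x ≠ x → F y ≠ y → rb2 x y → ra2 x y ∨ ra2 x (F y))
    (f : Om → ℝ) :
    (1 / 2) * (∑ x, (f x - f (F x)) ^ 2) - kapR rb N (f - ravg rb f)
        - kapR rb2 N (f - ravg rb2 f)
      ≤ 2 * ip (f - ravg rb f) (f - ravg rb2 f) := by
  let g : Om → ℝ := fun x => (f x + f (F x)) / 2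
  let h : Om → ℝ := ravg ra (ravg ra2 g)
  let ε : Om → ℝ := ind (fun x => ¬ Z x)
  have hnZb : ∀ x y, rb x y → (¬ Z x ↔ ¬ Z y) := fun x y hxy => not_congr (hZb x y hxy)
  have hnZb2 : ∀ x y, rb2 x y → (¬ Z x ↔ ¬ Z y) := fun x y hxy => not_congr (hZb2 x y hxy)
  have hεb : ∀ x y, rb x y → ε x = ε y := ind_inv hnZb
  have hεb2 : ∀ x y, rb2 x y → ε x = ε y := ind_inv hnZb2
  have hεF : ∀ x, ε (F x) = ε x := fun x => (hεb x (F x) (hFb x)).symm
  have hε1 : ∀ x, F x ≠ x → ε x = 1 := by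
    intro x hx
    show ind (fun x => ¬ Z x) x = 1
    unfold ind
    rw [if_pos (fun hz => hx (hZF x hz))]
  -- splitting into the odd and the even part
  have hA : ip (f - ravg rb f) (f - ravg rb2 f)
      = ∑ x, ind Z x * ((f x - ravg rb f x) * (f x - ravg rb2 f x))
        + ∑ x, ε x * ((f x - ravg rb f x) * (f x - ravg rb2 f x)) := by
    unfold ip
    rw [← sum_add_distrib]
    refine sum_congr rfl fun x _ => ?_
    have h1 : ind Z x + ε x = 1 := by
      show ind Z x + ind (fun x => ¬ Z x) x = 1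
      unfold ind
      by_cases hz : Z x
      · rw [if_pos hz, if_neg (fun h' => h' hz), add_zero]
      · rw [if_neg hz, if_pos hz, zero_add]
    simp only [Pi.sub_apply]
    calc (f x - ravg rb f x) * (f x - ravg rb2 f x)
        = (ind Z x + ε x) * ((f x - ravg rb f x) * (f x - ravg rb2 f x)) := by
          rw [h1, one_mul]
      _ = _ := by ring
  have hB := odd_part_nonneg hrb hrb2 Z hZb hZb2 hrect hZuniq f
  have hCs := even_split hrb hrb2 F hF hFb hFb2 ε hεF hε1 f
  have hD := even_four_term hrb hrb2 hra hra2 hab hab2 hC1 hC2 hC3 ε (ind_sq _) hεb hεb2 g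
  have hha : ∀ x y, ra x y → h x = h y := fun x y hxy => ravg_rel hra _ hxy
  have hha2 : ∀ x y, ra2 x y → h x = h y := by
    intro x y hxy
    show ravg ra (ravg ra2 g) x = ravg ra (ravg ra2 g) y
    rw [hC1 g]
    exact ravg_rel hra2 _ hxy
  have hEN := even_to_N hrb hrb2 F Z N hNF hZF hE h hha hha2
  have hG1 := kap_bound hrb hra hra2 F N hNF hF hFb hFa hFa2 hNa hNa2 hab hC1 hC2 hN f
  have hG2 := kap_bound hrb2 hra2 hra F N hNF hF hFb2 hFa2 hFa hNa2 hNa hab2
    (fun f => (hC1 f).symm) hC3 hN2 f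
  rw [← hC1 (fun x => (f x + f (F x)) / 2)] at hG2
  -- AM-GM on the moved points
  have hAM : 0 ≤ ∑ x ∈ univ.filter N,
      ((h x - ravg rb h x) + (h x - ravg rb2 h x)) ^ 2 := sum_nonneg fun x _ => sq_nonneg _
  have hAM2 : ∑ x ∈ univ.filter N,
      ((h x - ravg rb h x) + (h x - ravg rb2 h x)) ^ 2
      = ∑ x ∈ univ.filter N, (h x - ravg rb h x) ^ 2
        + 2 * ∑ x ∈ univ.filter N, (h x - ravg rb h x) * (h x - ravg rb2 h x)
        + ∑ x ∈ univ.filter N, (h x - ravg rb2 h x) ^ 2 := by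
    rw [mul_sum, ← sum_add_distrib, ← sum_add_distrib]
    exact sum_congr rfl fun x _ => by ring
  have hD' : ∑ x, ε x * ((h x - ravg rb h x) * (h x - ravg rb2 h x))
      ≤ ∑ x, ε x * ((g x - ravg rb g x) * (g x - ravg rb2 g x)) := hD
  have hCs' : ∑ x, ε x * ((f x - ravg rb f x) * (f x - ravg rb2 f x))
      = ∑ x, ε x * ((g x - ravg rb g x) * (g x - ravg rb2 g x))
        + (1 / 4) * ∑ x, (f x - f (F x)) ^ 2 := hCs
  have hEN' : ∑ x, ε x * ((h x - ravg rb h x) * (h x - ravg rb2 h x))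
      = ∑ x ∈ univ.filter N, (h x - ravg rb h x) * (h x - ravg rb2 h x) :=
    hEN
  have hG1' : ∑ x ∈ univ.filter N, (h x - ravg rb h x) ^ 2
      ≤ kapR rb N (f - ravg rb f) := hG1
  have hG2' : ∑ x ∈ univ.filter N, (h x - ravg rb2 h x) ^ 2
      ≤ kapR rb2 N (f - ravg rb2 f) := hG2
  linarith

end Vale.Agent.Lib.P335.H5
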